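import Vale.Agent.Lib.P150.Defs
import Vale.Agent.Lib.P150.Gibbs
import Vale.Agent.Lib.P150.Tail

/-!
Low-temperature lower bound for the relaxation and mixing times of the heat-bath dynamics of the
Sherrington-Kirkpatrick model: for `β > 2 √(ln 2)`, with probability close to one the inverse gap
and the mixing time are at least `δ n`.
-/

open MeasureTheory
open Vale.Agent.Lib.P150

namespace Vale.Agent.Results.P150.A_main

theorem result {β r : ℝ} (hβ : 0 < β) (hr : 0 < r)
    (hr' : r < 1 / 2 - Real.sqrt (Real.log 2) / β) :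
    ∃ C : ℝ, ∀ n : ℕ, 2 ≤ n → ∀ δ : ℝ, 0 < δ →
      ∃ A : Set (Pair n → ℝ), MeasurableSet A ∧ 1 - C * δ ^ r ≤ (disorder n).real A ∧
        ∀ g ∈ A, δ * n * gap β g ≤ 1 ∧ ENNReal.ofReal (Real.log 2 * δ * n) ≤ tmix β g := by
  set s := Real.sqrt (Real.log 2) with hs
  have hs0 : 0 ≤ s := Real.sqrt_nonneg _
  have hlog : 0 < Real.log 2 := Real.log_pos (by norm_num)
  have hspos : 0 < s := Real.sqrt_pos.mpr hlog
  have h1 : s < β * (1 / 2 - r) := by
    have : s / β < 1 / 2 - r := by linarith
    rw [div_lt_iff₀ hβ] at this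
    linarith
  set a := (s + β * (1 / 2 - r)) / 2 with ha
  have hsa : s < a := by rw [ha]; linarith
  have hcrit : a + β * r < β / 2 := by
    have : a < β * (1 / 2 - r) := by rw [ha]; linarith
    linarith
  have hr1 : r ≤ 1 := by
    have : 0 ≤ s / β := by positivity
    linarith
  have ha0 : 0 < a := lt_trans hspos hsa
  refine ⟨(β / 2 + 1 / (2 * a)) / (β / 2 - a - β * r), fun n hn δ hδ => ?_⟩
  have hn0 : 0 < n := by omega
  have hn' : (0 : ℝ) < n := by exact_mod_cast hn0
  have hpi : IsProbabilityMeasure (disorder n) := by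
    unfold disorder
    infer_instance
  have hmom := integral_ovl_rpow_le hn0 hβ.le hr hr1 hsa hcrit
  set C := (β / 2 + 1 / (2 * a)) / (β / 2 - a - β * r) with hC
  have hψc : Continuous (fun g : Pair n → ℝ => ovl β g ^ (-r)) :=
    (continuous_ovl β).rpow_const fun G => Or.inl (ovl_pos hn0 β G).ne'
  have hψ0 : 0 ≤ᶠ[ae (disorder n)] fun g : Pair n → ℝ => ovl β g ^ (-r) :=
    Filter.Eventually.of_forall fun g => ovl_rpow_nonneg hn0 β g _
  have hψint : Integrable (fun g : Pair n → ℝ => ovl β g ^ (-r)) (disorder n) := by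
    refine Integrable.mono' (integrable_const ((n : ℝ) ^ r)) hψc.aestronglyMeasurable ?_
    refine Filter.Eventually.of_forall fun g => ?_
    rw [Real.norm_eq_abs, abs_of_nonneg (ovl_rpow_nonneg hn0 β g _)]
    exact ovl_rpow_le hn0 β g hr.le
  have hδr : 0 < δ ^ r := Real.rpow_pos_of_pos hδ r
  have hmark := mul_meas_ge_le_integral_of_nonneg hψ0 hψint (δ ^ (-r))
  have hsub : {g : Pair n → ℝ | ovl β g < δ} ⊆ {g | δ ^ (-r) ≤ ovl β g ^ (-r)} := by
    intro g hg
    have hQ := ovl_pos hn0 β g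
    have hg' : ovl β g < δ := hg
    show δ ^ (-r) ≤ ovl β g ^ (-r)
    rw [Real.rpow_neg hδ.le, Real.rpow_neg hQ.le]
    exact inv_anti₀ (Real.rpow_pos_of_pos hQ r) (Real.rpow_le_rpow hQ.le hg'.le hr.le)
  have hle : (disorder n).real {g : Pair n → ℝ | ovl β g < δ} ≤ C * δ ^ r := by
    have h2 : (disorder n).real {g : Pair n → ℝ | ovl β g < δ} ≤
        (disorder n).real {g | δ ^ (-r) ≤ ovl β g ^ (-r)} :=
      measureReal_mono hsub (measure_ne_top _ _)
    have h3 : δ ^ (-r) * (disorder n).real {g | δ ^ (-r) ≤ ovl β g ^ (-r)} ≤ C :=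
      hmark.trans hmom
    rw [Real.rpow_neg hδ.le, inv_mul_le_iff₀ hδr] at h3
    calc _ ≤ (disorder n).real {g | (δ ^ r)⁻¹ ≤ ovl β g ^ (-r)} := by
          rw [← Real.rpow_neg hδ.le]; exact h2
      _ ≤ δ ^ r * C := h3
      _ = C * δ ^ r := mul_comm _ _
  have hclosed : IsClosed {g : Pair n → ℝ | δ ≤ ovl β g} :=
    isClosed_le continuous_const (continuous_ovl β)
  refine ⟨{g | δ ≤ ovl β g}, hclosed.measurableSet, ?_, ?_⟩
  · have hcompl : {g : Pair n → ℝ | δ ≤ ovl β g}ᶜ = {g | ovl β g < δ} := by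
      ext g
      simp
    have h4 : (disorder n).real {g : Pair n → ℝ | δ ≤ ovl β g} +
        (disorder n).real {g : Pair n → ℝ | ovl β g < δ} = 1 := by
      rw [← hcompl]
      rw [measureReal_add_measureReal_compl (μ := disorder n) hclosed.measurableSet]
      simp
    linarith
  · intro g hg
    have hg' : δ ≤ ovl β g := hg
    constructor
    · have h5 := mul_ovl_mul_gap_le hn0 β g
      have h6 := gap_nonneg hn0 β g
      calc δ * n * gap β g ≤ ovl β g * n * gap β g := by
            refine mul_le_mul_of_nonneg_right ?_ h6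
            exact mul_le_mul_of_nonneg_right hg' hn'.le
        _ = n * ovl β g * gap β g := by ring
        _ ≤ 1 := h5
    · refine le_trans (ENNReal.ofReal_le_ofReal ?_) (ofReal_le_tmix hn0 β g)
      calc Real.log 2 * δ * n = Real.log 2 * n * δ := by ring
        _ ≤ Real.log 2 * n * ovl β g :=
          mul_le_mul_of_nonneg_left hg' (by positivity)

end Vale.Agent.Results.P150.A_main
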